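import Vale.Agent.P065.H819.RowBox
import Vale.Agent.P065.H268.TimeAv
import Vale.Agent.P065.H154.Frame

/-!
# P065: a time which is not near the middle of its cell (helper422)

`nearU u g v x` (digits of length `g`) against `H819.nn dX g` (digit of length `dX ≥ g`).
-/

set_option autoImplicit false

open Finset Real

noncomputable section

namespace Vale.Agent.P065.H422

open Vale.Agent.P065.H268 Vale.Agent.P065.H819

/-- the cell of depth `v + n` inside the cell of depth `v` -/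
lemma cellU_bounds (u : ℝ) (v n : ℕ) (x : ℝ) :
    cellU u v x * 2 ^ n ≤ cellU u (v + n) x ∧ cellU u (v + n) x < (cellU u v x + 1) * 2 ^ n := by
  have h1 := Int.floor_le ((2 : ℝ) ^ v * (x + u))
  have h2 := Int.lt_floor_add_one ((2 : ℝ) ^ v * (x + u))
  have hn : (0 : ℝ) < 2 ^ n := by positivity
  have e : (2 : ℝ) ^ (v + n) * (x + u) = (2 : ℝ) ^ v * (x + u) * 2 ^ n := by
    rw [pow_add]; ring
  unfold cellU
  rw [e]
  constructor
  · rw [Int.le_floor]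
    push_cast
    exact mul_le_mul_of_nonneg_right h1 hn.le
  · rw [Int.floor_lt]
    push_cast
    exact mul_lt_mul_of_pos_right h2 hn

lemma cellU_div (u : ℝ) (v n : ℕ) (x : ℝ) : cellU u (v + n) x / 2 ^ n = cellU u v x := by
  obtain ⟨h1, h2⟩ := cellU_bounds u v n x
  have hn : (0 : ℤ) < 2 ^ n := by positivity
  apply le_antisymm
  · exact Int.lt_add_one_iff.1 (Int.ediv_lt_of_lt_mul hn h2)
  · exact (Int.le_ediv_iff_mul_le hn).2 h1

/-- not near the midpoint (integers) -/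
lemma nn_int {g dX : ℕ} (hg : 1 ≤ g) (hd : g ≤ dX) {d X Y : ℤ}
    (hY1 : d * 2 ^ g ≤ Y) (hY2 : Y < (d + 1) * 2 ^ g) (hX1 : Y * 2 ^ (dX - g) ≤ X)
    (hX2 : X < (Y + 1) * 2 ^ (dX - g))
    (h : ¬ (Y % 2 ^ g = 2 ^ (g - 1) - 1 ∨ Y % 2 ^ g = 2 ^ (g - 1))) : nn dX g d X := by
  obtain ⟨k, rfl⟩ : ∃ k, g = k + 1 := ⟨g - 1, by omega⟩
  simp only [Nat.add_sub_cancel] at h
  have hmod : Y % 2 ^ (k + 1) = Y - d * 2 ^ (k + 1) := by
    have hy : Y = (Y - d * 2 ^ (k + 1)) + 2 ^ (k + 1) * d := by ring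
    rw [hy, Int.add_mul_emod_self_left]
    rw [show Y - d * 2 ^ (k + 1) + 2 ^ (k + 1) * d - d * 2 ^ (k + 1) = Y - d * 2 ^ (k + 1) by ring]
    refine Int.emod_eq_of_lt (by linarith) ?_
    have : (d + 1) * 2 ^ (k + 1) = d * 2 ^ (k + 1) + (2 : ℤ) ^ (k + 1) := by ring
    linarith
  rw [hmod] at h
  have hx1 : ((Y : ℝ) * 2 ^ (dX - (k + 1))) ≤ X := by exact_mod_cast hX1
  have hx2 : (X : ℝ) < ((Y : ℝ) + 1) * 2 ^ (dX - (k + 1)) := by exact_mod_cast hX2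
  have epow : (2 : ℝ) ^ dX = 2 ^ (dX - (k + 1)) * 2 ^ (k + 1) := by
    rw [← pow_add]; congr 1; omega
  have hp : (0 : ℝ) < 2 ^ (dX - (k + 1)) := by positivity
  have hk : (0 : ℝ) < 2 ^ (k + 1) := by positivity
  have hdX : (0 : ℝ) < 2 ^ dX := by positivity
  have l1 : (Y : ℝ) / 2 ^ (k + 1) ≤ X / 2 ^ dX := by
    rw [div_le_div_iff₀ hk hdX, epow]
    nlinarith
  have l2 : (X : ℝ) / 2 ^ dX < ((Y : ℝ) + 1) / 2 ^ (k + 1) := by
    rw [div_lt_div_iff₀ hdX hk, epow]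
    nlinarith
  have k2 : (2 : ℝ) ^ (k + 1) = 2 * 2 ^ k := by rw [pow_succ]; ring
  have hkk : (0 : ℝ) < 2 ^ k := by positivity
  unfold nn xhh
  push Not at h
  by_cases hc : Y - d * 2 ^ (k + 1) ≤ 2 ^ k - 2
  · -- left half
    have hc' : (Y : ℝ) - d * 2 ^ (k + 1) ≤ 2 ^ k - 2 := by exact_mod_cast hc
    have : ((Y : ℝ) + 1) / 2 ^ (k + 1) ≤ d + 1 / 2 - 1 / 2 ^ (k + 1) := by
      rw [div_le_iff₀ hk]
      have : (d + 1 / 2 - 1 / 2 ^ (k + 1)) * (2 : ℝ) ^ (k + 1) = d * 2 ^ (k + 1) + 2 ^ k - 1 := by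
        rw [sub_mul, add_mul, one_div_mul_cancel hk.ne', k2]; ring
      rw [this]; linarith
    rw [le_abs]; right; linarith
  · -- right half
    have hc2 : 2 ^ k + 1 ≤ Y - d * 2 ^ (k + 1) := by
      rcases lt_trichotomy (Y - d * 2 ^ (k + 1)) (2 ^ k - 1) with h' | h' | h'
      · exact absurd (by linarith [Int.le_sub_one_of_lt h'] : Y - d * 2 ^ (k + 1) ≤ 2 ^ k - 2) hc
      · exact absurd h' h.1
      · have h3 : (2 : ℤ) ^ k ≤ Y - d * 2 ^ (k + 1) := by linarith [Int.add_one_le_of_lt h']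
        exact Int.add_one_le_of_lt (lt_of_le_of_ne h3 (Ne.symm h.2))
    have hc' : (2 : ℝ) ^ k + 1 ≤ (Y : ℝ) - d * 2 ^ (k + 1) := by exact_mod_cast hc2
    have : d + 1 / 2 + 1 / 2 ^ (k + 1) ≤ (Y : ℝ) / 2 ^ (k + 1) := by
      rw [le_div_iff₀ hk]
      have : (d + 1 / 2 + 1 / 2 ^ (k + 1)) * (2 : ℝ) ^ (k + 1) = d * 2 ^ (k + 1) + 2 ^ k + 1 := by
        rw [add_mul, add_mul, one_div_mul_cancel hk.ne', k2]; ring
      rw [this]; linarith
    rw [le_abs]; left; linarith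

/-- a time not near the middle of its cell: the digit of length `dX` is not near the middle -/
theorem nn_of_not_nearU {u : ℝ} {g dX v : ℕ} (hg : 1 ≤ g) (hd : g ≤ dX) {x : ℝ}
    (h : ¬ nearU u g v x) : nn dX g (cellU u v x) (cellU u (v + dX) x) := by
  obtain ⟨a1, a2⟩ := cellU_bounds u v g x
  obtain ⟨b1, b2⟩ := cellU_bounds u (v + g) (dX - g) x
  rw [show v + g + (dX - g) = v + dX by omega] at b1 b2
  exact nn_int hg hd a1 a2 b1 b2 h

/-- the same on the frame -/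
theorem nn_of_not_nearU' {Ω : Type*} [Fintype Ω] (F : H154.Fr Ω) {u : ℝ} {g dX v : ℕ}
    (hg : 1 ≤ g) (hd : g ≤ dX) {ω : Ω} (h : ¬ nearU u g v (F.P.x ω)) :
    nn dX g (F.D u v ω) (F.D u (v + dX) ω) :=
  nn_of_not_nearU hg hd h

end Vale.Agent.P065.H422
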