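import Vale.Agent.P065.H860.NGDef

/-!
# P065, lemma NG, step (3): the expected number of bad columns (helper422)

* `ms_fiber` : comparison of masses cell by cell;
* `max_ineq` : the maximal inequality for nested cells;
* `halve_card`, `card_evt` : the counting of events along a nested chain;
* `sum_bad` : `E #{k : k ∈ E_S} ≤ 3 (1 + 1/q) (E + 1)`.
-/

set_option autoImplicit false

namespace Vale.Agent.P065.H422

open Finset Vale.Agent.P065.Ent Vale.Agent.P065.H725 Vale.Agent.P065.H860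

variable {Ω L ζ : Type*} [Fintype Ω]

/-- a mass is the sum of the masses of its intersections with the cells of a label -/
theorem ms_fiber_sum {ι : Type*} [DecidableEq ι] (μ : Ω → ℝ) (lab : Ω → ι) (X : Ω → Prop) :
    ms μ X = ∑ c ∈ univ.image lab, ms μ (fun ω => X ω ∧ lab ω = c) := by
  classical
  unfold ms
  rw [sum_comm]
  refine sum_congr rfl fun ω _ => ?_
  by_cases hX : X ω
  · rw [if_pos hX, sum_eq_single (lab ω)]
    · rw [if_pos ⟨hX, rfl⟩]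
    · intro c _ hc
      rw [if_neg]
      rintro ⟨-, h⟩
      exact hc h.symm
    · intro h
      exact absurd (mem_image_of_mem _ (mem_univ _)) h
  · rw [if_neg hX]
    symm
    refine sum_eq_zero fun c _ => ?_
    rw [if_neg]
    rintro ⟨h, -⟩
    exact hX h

/-- comparison of masses cell by cell -/
theorem ms_fiber {ι : Type*} (μ : Ω → ℝ) (lab : Ω → ι) (X Y : Ω → Prop) (c : ℝ)
    (h : ∀ ω₀, ms μ (fun ω => X ω ∧ lab ω = lab ω₀) ≤
      c * ms μ (fun ω => Y ω ∧ lab ω = lab ω₀)) : ms μ X ≤ c * ms μ Y := by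
  classical
  rw [ms_fiber_sum μ lab X, ms_fiber_sum μ lab Y, mul_sum]
  refine sum_le_sum fun i hi => ?_
  obtain ⟨ω₀, -, rfl⟩ := mem_image.1 hi
  exact h ω₀

/-- the expected number of events is the sum of their masses -/
theorem sum_card {K : Finset ℤ} (μ : Ω → ℝ) (X : ℤ → Ω → Prop)
    [∀ ω, DecidablePred fun k => X k ω] :
    ∑ ω, μ ω * (#{k ∈ K | X k ω} : ℝ) = ∑ k ∈ K, ms μ (X k) := by
  classical
  unfold ms
  rw [sum_comm]
  refine sum_congr rfl fun ω _ => ?_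
  rw [Finset.card_filter, Nat.cast_sum, mul_sum]
  refine sum_congr rfl fun k _ => ?_
  by_cases h : X k ω <;> simp [h]

/-- **maximal inequality** for nested cells `V κ`: the set of the points which have, at some
`κ ∈ K`, `κ`-cell with share of `B` at least `q` has mass at most `ms B / q`. -/
theorem max_ineq {μ : Ω → ℝ} (hμ : IsProb μ) {ι : Type*} (V : ℤ → Ω → ι)
    (hV : ∀ ⦃i j : ℤ⦄ ⦃u v : Ω⦄, i ≤ j → V j u = V j v → V i u = V i v) (B : Ω → Prop) {q : ℝ}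
    (hq : 0 ≤ q) (cond : ℤ → Ω → Prop)
    (hc : ∀ i u v, V i u = V i v → cond i u → cond i v)
    (K : Finset ℤ)
    (hs : ∀ i ∈ K, ∀ u, cond i u → q * ms μ (fun ω => V i ω = V i u) ≤
      ms μ (fun ω => B ω ∧ V i ω = V i u)) :
    q * ms μ (fun ω => ∃ i ∈ K, cond i ω) ≤ ms μ (fun ω => B ω ∧ ∃ i ∈ K, cond i ω) := by
  classical
  induction K using Finset.induction_on_max with
  | empty =>
    have h1 : ms μ (fun ω => ∃ i ∈ (∅ : Finset ℤ), cond i ω) = 0 := by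
      unfold ms
      simp
    rw [h1, mul_zero]
    exact ms_nonneg hμ _
  | insert b s hb ih =>
    have ih' := ih fun i hi => hs i (mem_insert_of_mem hi)
    -- the new part
    have h1 : q * ms μ (fun ω => cond b ω ∧ ¬ ∃ i ∈ s, cond i ω) ≤
        ms μ (fun ω => B ω ∧ cond b ω ∧ ¬ ∃ i ∈ s, cond i ω) := by
      by_cases hq0 : q = 0
      · rw [hq0, zero_mul]
        exact ms_nonneg hμ _
      have hq1 : 0 < q := lt_of_le_of_ne hq (Ne.symm hq0)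
      have h2 : ms μ (fun ω => cond b ω ∧ ¬ ∃ i ∈ s, cond i ω) ≤
          (1 / q) * ms μ (fun ω => B ω ∧ cond b ω ∧ ¬ ∃ i ∈ s, cond i ω) := by
        refine ms_fiber μ (V b) _ _ _ fun ω₀ => ?_
        by_cases h3 : cond b ω₀ ∧ ¬ ∃ i ∈ s, cond i ω₀
        · have h4 : ∀ ω, V b ω = V b ω₀ → (cond b ω ∧ ¬ ∃ i ∈ s, cond i ω) := by
            intro ω hω
            refine ⟨hc b _ _ hω.symm h3.1, ?_⟩
            rintro ⟨i, hi, hci⟩
            exact h3.2 ⟨i, hi, hc i _ _ (hV (hb i hi).le hω) hci⟩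
          have h5 := hs b (mem_insert_self _ _) ω₀ h3.1
          rw [one_div, inv_mul_eq_div, le_div_iff₀ hq1]
          calc ms μ (fun ω => (cond b ω ∧ ¬ ∃ i ∈ s, cond i ω) ∧ V b ω = V b ω₀) * q
              = q * ms μ (fun ω => (cond b ω ∧ ¬ ∃ i ∈ s, cond i ω) ∧ V b ω = V b ω₀) :=
                mul_comm _ _
            _ ≤ q * ms μ (fun ω => V b ω = V b ω₀) :=
                mul_le_mul_of_nonneg_left (ms_mono hμ fun ω _ h => h.2) hq
            _ ≤ ms μ (fun ω => B ω ∧ V b ω = V b ω₀) := h5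
            _ ≤ ms μ (fun ω => (B ω ∧ cond b ω ∧ ¬ ∃ i ∈ s, cond i ω) ∧ V b ω = V b ω₀) :=
                ms_mono hμ fun ω _ h => ⟨⟨h.1, h4 ω h.2⟩, h.2⟩
        · have h4 : ms μ (fun ω => (cond b ω ∧ ¬ ∃ i ∈ s, cond i ω) ∧ V b ω = V b ω₀) ≤ 0 := by
            have h5 : ms μ (fun ω => (cond b ω ∧ ¬ ∃ i ∈ s, cond i ω) ∧ V b ω = V b ω₀) ≤
                ms μ (fun _ => False) := by
              refine ms_mono hμ fun ω _ h => h3 ⟨hc b _ _ h.2 h.1.1, ?_⟩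
              rintro ⟨i, hi, hci⟩
              exact h.1.2 ⟨i, hi, hc i _ _ (hV (hb i hi).le h.2.symm) hci⟩
            refine h5.trans (le_of_eq ?_)
            unfold ms
            simp
          exact h4.trans (mul_nonneg (by positivity) (ms_nonneg hμ _))
      rw [one_div, inv_mul_eq_div, le_div_iff₀ hq1] at h2
      linarith
    have h2 := ms_split μ (fun ω => ∃ i ∈ insert b s, cond i ω) (fun ω => ∃ i ∈ s, cond i ω)
    have h3 := ms_split μ (fun ω => B ω ∧ ∃ i ∈ insert b s, cond i ω)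
      (fun ω => ∃ i ∈ s, cond i ω)
    have e1 : ms μ (fun ω => (∃ i ∈ insert b s, cond i ω) ∧ ∃ i ∈ s, cond i ω) =
        ms μ (fun ω => ∃ i ∈ s, cond i ω) :=
      ms_congr hμ fun ω _ => ⟨fun h => h.2, fun ⟨i, hi, h⟩ =>
        ⟨⟨i, mem_insert_of_mem hi, h⟩, ⟨i, hi, h⟩⟩⟩
    have e2 : ms μ (fun ω => (∃ i ∈ insert b s, cond i ω) ∧ ¬ ∃ i ∈ s, cond i ω) =
        ms μ (fun ω => cond b ω ∧ ¬ ∃ i ∈ s, cond i ω) := by
      refine ms_congr hμ fun ω _ => ⟨?_, fun h => ⟨⟨b, mem_insert_self _ _, h.1⟩, h.2⟩⟩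
      rintro ⟨⟨i, hi, h⟩, h'⟩
      rcases mem_insert.1 hi with rfl | hi
      · exact ⟨h, h'⟩
      · exact absurd ⟨i, hi, h⟩ h'
    have e3 : ms μ (fun ω => (B ω ∧ ∃ i ∈ insert b s, cond i ω) ∧ ∃ i ∈ s, cond i ω) =
        ms μ (fun ω => B ω ∧ ∃ i ∈ s, cond i ω) :=
      ms_congr hμ fun ω _ => ⟨fun h => ⟨h.1.1, h.2⟩, fun ⟨hB, i, hi, h⟩ =>
        ⟨⟨hB, i, mem_insert_of_mem hi, h⟩, ⟨i, hi, h⟩⟩⟩
    have e4 : ms μ (fun ω => (B ω ∧ ∃ i ∈ insert b s, cond i ω) ∧ ¬ ∃ i ∈ s, cond i ω) =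
        ms μ (fun ω => B ω ∧ cond b ω ∧ ¬ ∃ i ∈ s, cond i ω) := by
      refine ms_congr hμ fun ω _ =>
        ⟨?_, fun h => ⟨⟨h.1, ⟨b, mem_insert_self _ _, h.2.1⟩⟩, h.2.2⟩⟩
      rintro ⟨⟨hB, i, hi, h⟩, h'⟩
      rcases mem_insert.1 hi with rfl | hi
      · exact ⟨hB, h, h'⟩
      · exact absurd ⟨i, hi, h⟩ h'
    rw [h2, h3, e1, e2, e3, e4, mul_add]
    linarith

/-- halving along a chain with gaps: if `f (k + 3) ≤ q f k` at the points `k` of a set `s` of one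
residue class, then `f a ≤ q ^ #s` beyond the set -/
theorem chain_le {f : ℤ → ℝ} (hf : ∀ ⦃i j : ℤ⦄, i ≤ j → f j ≤ f i)
    (hf1 : ∀ i, f i ≤ 1) {q : ℝ} (hq : 0 ≤ q) (s : Finset ℤ)
    (hs : ∀ k ∈ s, f (k + 3) ≤ q * f k)
    (hgap : ∀ i ∈ s, ∀ j ∈ s, i < j → i + 3 ≤ j) :
    ∀ a, (∀ i ∈ s, i + 3 ≤ a) → f a ≤ q ^ #s := by
  classical
  induction s using Finset.induction_on_max with
  | empty => intro a _; simpa using hf1 a
  | insert b s hb ih =>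
    intro a ha
    have hbs : b ∉ s := fun h => lt_irrefl _ (hb b h)
    have h1 := ih (fun k hk => hs k (mem_insert_of_mem hk))
      (fun i hi j hj => hgap i (mem_insert_of_mem hi) j (mem_insert_of_mem hj)) b
      (fun i hi => hgap i (mem_insert_of_mem hi) b (mem_insert_self _ _) (hb i hi))
    rw [card_insert_of_notMem hbs, pow_succ]
    calc f a ≤ f (b + 3) := hf (ha b (mem_insert_self _ _))
      _ ≤ q * f b := hs b (mem_insert_self _ _)
      _ ≤ q * q ^ #s := mul_le_mul_of_nonneg_left h1 hq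
      _ = q ^ #s * q := mul_comm _ _

/-- the number of the points of one residue class -/
theorem chain_card {f : ℤ → ℝ} (hf : ∀ ⦃i j : ℤ⦄, i ≤ j → f j ≤ f i)
    (hf1 : ∀ i, f i ≤ 1) {q : ℝ} (hq : 0 ≤ q) {Lq E : ℕ} (hLq : 1 ≤ Lq)
    (hqL : q ≤ (1 / 2 : ℝ) ^ Lq) (s : Finset ℤ)
    (hs : ∀ k ∈ s, f (k + 3) ≤ q * f k) (hE : ∀ k ∈ s, (1 / 2 : ℝ) ^ E ≤ f k)
    (hgap : ∀ i ∈ s, ∀ j ∈ s, i < j → i + 3 ≤ j) : #s ≤ E / Lq + 1 := by
  classical
  rcases s.eq_empty_or_nonempty with rfl | hne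
  · simp
  set b := s.max' hne with hb
  have hbs : b ∈ s := s.max'_mem hne
  have h1 : f b ≤ q ^ #(s.erase b) := by
    refine chain_le hf hf1 hq (s.erase b) (fun k hk => hs k (mem_of_mem_erase hk))
      (fun i hi j hj => hgap i (mem_of_mem_erase hi) j (mem_of_mem_erase hj)) b fun i hi => ?_
    exact hgap i (mem_of_mem_erase hi) b hbs
      (lt_of_le_of_ne (s.le_max' i (mem_of_mem_erase hi)) (ne_of_mem_erase hi))
  rw [card_erase_of_mem hbs] at h1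
  have h2 : (1 / 2 : ℝ) ^ E ≤ (1 / 2 : ℝ) ^ (Lq * (#s - 1)) := by
    calc (1 / 2 : ℝ) ^ E ≤ f b := hE b hbs
      _ ≤ q ^ (#s - 1) := h1
      _ ≤ ((1 / 2 : ℝ) ^ Lq) ^ (#s - 1) := pow_le_pow_left₀ hq hqL _
      _ = (1 / 2 : ℝ) ^ (Lq * (#s - 1)) := by rw [pow_mul]
  have h3 : Lq * (#s - 1) ≤ E := by
    by_contra hcon
    push Not at hcon
    have := pow_lt_pow_right_of_lt_one₀ (a := (1 / 2 : ℝ)) (by norm_num) (by norm_num) hcon
    linarith
  have h4 : #s - 1 ≤ E / Lq := by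
    rw [Nat.le_div_iff_mul_le (by omega)]
    rw [mul_comm]
    exact h3
  omega

/-- the same without the gaps: three residue classes -/
theorem chain_card3 {f : ℤ → ℝ} (hf : ∀ ⦃i j : ℤ⦄, i ≤ j → f j ≤ f i)
    (hf1 : ∀ i, f i ≤ 1) {q : ℝ} (hq : 0 ≤ q) {Lq E : ℕ} (hLq : 1 ≤ Lq)
    (hqL : q ≤ (1 / 2 : ℝ) ^ Lq) (s : Finset ℤ)
    (hs : ∀ k ∈ s, f (k + 3) ≤ q * f k) (hE : ∀ k ∈ s, (1 / 2 : ℝ) ^ E ≤ f k) :
    #s ≤ 3 * (E / Lq + 1) := by
  classical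
  have h1 : #s = ∑ r ∈ range 3, #{k ∈ s | (k % 3).toNat = r} := by
    refine card_eq_sum_card_fiberwise fun k _ => ?_
    have := Int.emod_lt_of_pos k (show (0 : ℤ) < 3 by norm_num)
    have := Int.emod_nonneg k (show (3 : ℤ) ≠ 0 by norm_num)
    simp only [coe_range, Set.mem_Iio]
    omega
  rw [h1]
  calc ∑ r ∈ range 3, #{k ∈ s | (k % 3).toNat = r} ≤ ∑ _r ∈ range 3, (E / Lq + 1) := by
        refine sum_le_sum fun r _ => ?_
        refine chain_card hf hf1 hq hLq hqL _ (fun k hk => hs k (mem_filter.1 hk).1)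
          (fun k hk => hE k (mem_filter.1 hk).1) fun i hi j hj hij => ?_
        have h2 := (mem_filter.1 hi).2
        have h3 := (mem_filter.1 hj).2
        omega
    _ = 3 * (E / Lq + 1) := by simp

/-- **the number of events of a line** -/
theorem card_evt {μ : Ω → ℝ} (hμ : IsProb μ) (ln : Ω → L) {S Z : ℤ → L → ζ} (hS : Nst S)
    (hZ : Nst Z) {q : ℝ} (hq : 0 ≤ q) {Lq E : ℕ} (hLq : 1 ≤ Lq) (hqL : q ≤ (1 / 2 : ℝ) ^ Lq)
    (o : ℤ) (K : Finset ℤ) (v : L) [DecidablePred fun k => Evt μ ln S Z q E o k v] :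
    #{k ∈ K | Evt μ ln S Z q E o k v} ≤ 3 * (E / Lq + 1) := by
  refine chain_card3 (f := fun k => nm μ ln S Z k (k + o) v)
    (fun i j hij => nm_anti hμ ln hS hZ hij (by omega) v)
    (fun i => nm_le_one hμ ln S Z _ _ v) hq hLq hqL _ (fun k hk => ?_)
    (fun k hk => (mem_filter.1 hk).2.1)
  exact (nm_anti hμ ln hS hZ le_rfl (by omega) v).trans (mem_filter.1 hk).2.2

/-- disjoint children: the masses of two different `(k + 3, κ)`-children of one node -/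
theorem nm_add_le {μ : Ω → ℝ} (hμ : IsProb μ) (ln : Ω → L) {S Z : ℤ → L → ζ} (hS : Nst S)
    {k k' κ : ℤ} (hk : k ≤ k') {u v : L} (h1 : S k u = S k v) (h2 : Z κ u = Z κ v)
    (h3 : S k' u ≠ S k' v) :
    nm μ ln S Z k' κ u + nm μ ln S Z k' κ v ≤ nm μ ln S Z k κ u := by
  unfold nm
  rw [ms_split μ (fun ω => S k (ln ω) = S k u ∧ Z κ (ln ω) = Z κ u)
    (fun ω => S k' (ln ω) = S k' u)]
  refine add_le_add (ms_mono hμ fun ω _ h => ⟨⟨hS hk h.1, h.2⟩, h.1⟩)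
    (ms_mono hμ fun ω _ h => ⟨⟨(hS hk h.1).trans h1.symm, h.2.trans h2.symm⟩, fun h4 => ?_⟩)
  exact h3 (h4.symm.trans h.1)

/-- the bad columns are paid by the events of the chain `(k, k + o)` -/
theorem bad_le {μ : Ω → ℝ} (hμ : IsProb μ) (ln : Ω → L) {S Z : ℤ → L → ζ} (hS : Nst S)
    (hZ : Nst Z) {q : ℝ} (hq : 0 < q) (E : ℕ) (o κ₁ k : ℤ) :
    ms μ (fun ω => Bad μ ln S Z q E o κ₁ k (ln ω)) ≤
      (1 + 1 / q) * ms μ (fun ω => Evt μ ln S Z (1 / 2) E o k (ln ω)) := by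
  classical
  set lab : Ω → ζ × ζ := fun ω => (S k (ln ω), Z (k + o) (ln ω)) with hlab
  refine ms_fiber μ lab _ _ _ fun ω₀ => ?_
  by_cases hrel : (1 / 2 : ℝ) ^ E ≤ nm μ ln S Z k (k + o) (ln ω₀)
  swap
  · have h4 : ms μ (fun ω => Bad μ ln S Z q E o κ₁ k (ln ω) ∧ lab ω = lab ω₀) ≤
        ms μ (fun _ => False) := by
      refine ms_mono hμ fun ω _ h => hrel ?_
      obtain ⟨⟨κ, hκ, -, h1, -⟩, h2⟩ := h
      have h3 : S k (ln ω) = S k (ln ω₀) := congrArg Prod.fst h2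
      have h4 : Z (k + o) (ln ω) = Z (k + o) (ln ω₀) := congrArg Prod.snd h2
      rw [← nm_congr h3 h4]
      exact h1.trans (nm_anti hμ ln hS hZ le_rfl hκ _)
    have h5 : ms μ (fun _ => False) = 0 := by unfold ms; simp
    rw [h5] at h4
    exact h4.trans (mul_nonneg (by positivity) (ms_nonneg hμ _))
  -- the major child
  obtain ⟨ω₁, hω₁, hmax⟩ := Finset.exists_max_image (univ.filter fun ω => lab ω = lab ω₀)
    (fun ω => nm μ ln S Z (k + 3) (k + o) (ln ω)) ⟨ω₀, by simp⟩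
  have hω₁' : lab ω₁ = lab ω₀ := (mem_filter.1 hω₁).2
  set B : Ω → Prop := fun ω => lab ω = lab ω₀ ∧ S (k + 3) (ln ω) ≠ S (k + 3) (ln ω₁) with hB
  have hBE : ms μ B ≤ ms μ (fun ω => Evt μ ln S Z (1 / 2) E o k (ln ω) ∧ lab ω = lab ω₀) := by
    refine ms_mono hμ fun ω _ h => ⟨?_, h.1⟩
    have h3 : S k (ln ω) = S k (ln ω₀) := congrArg Prod.fst h.1
    have h4 : Z (k + o) (ln ω) = Z (k + o) (ln ω₀) := congrArg Prod.snd h.1
    have h5 : S k (ln ω₁) = S k (ln ω₀) := congrArg Prod.fst hω₁'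
    have h6 : Z (k + o) (ln ω₁) = Z (k + o) (ln ω₀) := congrArg Prod.snd hω₁'
    refine ⟨by rw [nm_congr h3 h4]; exact hrel, ?_⟩
    have h7 := nm_add_le hμ ln hS (show k ≤ k + 3 by omega) (h3.trans h5.symm) (h4.trans h6.symm)
      h.2
    have h8 := hmax ω (mem_filter.2 ⟨mem_univ _, h.1⟩)
    linarith
  set V : ℤ → Ω → (ζ × ζ) × ζ := fun i ω => (lab ω, Z i (ln ω)) with hVdef
  have hV : ∀ ⦃i j : ℤ⦄ ⦃u v : Ω⦄, i ≤ j → V j u = V j v → V i u = V i v := by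
    intro i j u v hij h
    have h1 : lab u = lab v := congrArg Prod.fst h
    have h2 : Z j (ln u) = Z j (ln v) := congrArg Prod.snd h
    exact Prod.ext h1 (hZ hij h2)
  have hmx := max_ineq hμ V hV B hq.le
    (fun i ω => lab ω = lab ω₀ ∧ q * ms μ (fun ω' => V i ω' = V i ω) ≤
      ms μ (fun ω' => B ω' ∧ V i ω' = V i ω)) (by
        intro i u v huv h
        have h1 : lab u = lab v := congrArg Prod.fst huv
        refine ⟨h1.symm.trans h.1, ?_⟩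
        rw [← huv]
        exact h.2) (Icc (k + o) κ₁) (fun i _ u h => h.2)
  have h1 : ms μ (fun ω => Bad μ ln S Z q E o κ₁ k (ln ω) ∧ lab ω = lab ω₀) ≤
      ms μ (fun ω => B ω ∨ ∃ i ∈ Icc (k + o) κ₁, (lab ω = lab ω₀ ∧
        q * ms μ (fun ω' => V i ω' = V i ω) ≤ ms μ (fun ω' => B ω' ∧ V i ω' = V i ω))) := by
    refine ms_mono hμ fun ω _ h => ?_
    obtain ⟨⟨κ, hκ, hκ₁, -, hsh⟩, h2⟩ := h
    by_cases hS3 : S (k + 3) (ln ω) = S (k + 3) (ln ω₁)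
    swap
    · exact Or.inl ⟨h2, hS3⟩
    refine Or.inr ⟨κ, mem_Icc.2 ⟨hκ, hκ₁⟩, h2, ?_⟩
    have h3 : ms μ (fun ω' => V κ ω' = V κ ω) = nm μ ln S Z k κ (ln ω) := by
      unfold nm
      refine ms_congr hμ fun ω' _ => ⟨fun h => ?_, fun h => ?_⟩
      · exact ⟨congrArg Prod.fst (congrArg Prod.fst h), congrArg Prod.snd h⟩
      · exact Prod.ext (Prod.ext h.1 (hZ hκ h.2)) h.2
    have h4 : nm μ ln S Z k κ (ln ω) ≤ nm μ ln S Z (k + 3) κ (ln ω) +
        ms μ (fun ω' => B ω' ∧ V κ ω' = V κ ω) := by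
      unfold nm
      rw [ms_split μ (fun ω' => S k (ln ω') = S k (ln ω) ∧ Z κ (ln ω') = Z κ (ln ω))
        (fun ω' => S (k + 3) (ln ω') = S (k + 3) (ln ω))]
      refine add_le_add (ms_mono hμ fun ω' _ h => ⟨h.2, h.1.2⟩)
        (ms_mono hμ fun ω' _ h => ?_)
      have h5 : lab ω' = lab ω := Prod.ext h.1.1 (hZ hκ h.1.2)
      refine ⟨⟨h5.trans h2, fun h6 => h.2 (h6.trans hS3.symm)⟩, Prod.ext h5 h.1.2⟩
    rw [h3]
    linarith
  have h2 := ms_or_le hμ B (fun ω => ∃ i ∈ Icc (k + o) κ₁, (lab ω = lab ω₀ ∧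
        q * ms μ (fun ω' => V i ω' = V i ω) ≤ ms μ (fun ω' => B ω' ∧ V i ω' = V i ω)))
  have h3 : ms μ (fun ω => ∃ i ∈ Icc (k + o) κ₁, (lab ω = lab ω₀ ∧
        q * ms μ (fun ω' => V i ω' = V i ω) ≤ ms μ (fun ω' => B ω' ∧ V i ω' = V i ω))) ≤
      1 / q * ms μ B := by
    have h4 := hmx.trans (ms_mono hμ fun ω _ h => h.1 : _ ≤ ms μ B)
    rw [one_div, inv_mul_eq_div, le_div_iff₀ hq, mul_comm]
    exact h4
  have h5 : 0 ≤ 1 + 1 / q := by positivity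
  calc _ ≤ ms μ B + 1 / q * ms μ B := h1.trans (h2.trans (by linarith))
    _ = (1 + 1 / q) * ms μ B := by ring
    _ ≤ _ := mul_le_mul_of_nonneg_left hBE h5

/-- **NG, step (3)**: the expected number of bad columns -/
theorem sum_bad {μ : Ω → ℝ} (hμ : IsProb μ) (ln : Ω → L) {S Z : ℤ → L → ζ} (hS : Nst S)
    (hZ : Nst Z) {q : ℝ} (hq : 0 < q) (E : ℕ) (o κ₁ : ℤ) (K : Finset ℤ)
    [∀ ω, DecidablePred fun k => Bad μ ln S Z q E o κ₁ k (ln ω)] :
    ∑ ω, μ ω * (#{k ∈ K | Bad μ ln S Z q E o κ₁ k (ln ω)} : ℝ) ≤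
      3 * (1 + 1 / q) * ((E : ℝ) + 1) := by
  classical
  have h0 : 0 ≤ 1 + 1 / q := by positivity
  calc ∑ ω, μ ω * (#{k ∈ K | Bad μ ln S Z q E o κ₁ k (ln ω)} : ℝ)
      = ∑ k ∈ K, ms μ (fun ω => Bad μ ln S Z q E o κ₁ k (ln ω)) :=
        sum_card μ fun k ω => Bad μ ln S Z q E o κ₁ k (ln ω)
    _ ≤ ∑ k ∈ K, (1 + 1 / q) * ms μ (fun ω => Evt μ ln S Z (1 / 2) E o k (ln ω)) :=
        sum_le_sum fun k _ => bad_le hμ ln hS hZ hq E o κ₁ k
    _ = (1 + 1 / q) * ∑ ω, μ ω * (#{k ∈ K | Evt μ ln S Z (1 / 2) E o k (ln ω)} : ℝ) := by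
        rw [← mul_sum, sum_card μ fun k ω => Evt μ ln S Z (1 / 2) E o k (ln ω)]
    _ ≤ (1 + 1 / q) * ∑ ω, μ ω * (3 * ((E : ℝ) + 1)) := by
        refine mul_le_mul_of_nonneg_left (sum_le_sum fun ω _ => ?_) h0
        refine mul_le_mul_of_nonneg_left ?_ (hμ.nonneg ω)
        have h1 := card_evt hμ ln hS hZ (q := 1 / 2) (by norm_num) (Lq := 1) (E := E) le_rfl
          (by norm_num) o K (ln ω)
        rw [Nat.div_one] at h1
        exact_mod_cast h1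
    _ = 3 * (1 + 1 / q) * ((E : ℝ) + 1) := by
        rw [← sum_mul, hμ.sum]
        ring

end Vale.Agent.P065.H422
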