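import Vale.Agent.P065.H422.NG3

/-!
# P065, lemma NG, step (5): the index of the conflict-free lines (helper422)

* `idx_ne` : the combinatorial index lemma;
* `exists_sub` : among the lines without conflict there is a set, of a proportion of the mass
  bounded by the number of colours, in which no two lines are separated in both directions at a
  relevant common node of the band.
-/

set_option autoImplicit false

namespace Vale.Agent.P065.H422

open Finset Vale.Agent.P065.Ent Vale.Agent.P065.H725 Vale.Agent.P065.H860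

variable {Ω L ζ : Type*} [Fintype Ω]

/-- the index of the key `k + lo`: the number of the events of smaller key -/
def idx (S Z : Finset ℤ) (lo k : ℤ) : ℕ := #{j ∈ S | j < k} + #{i ∈ Z | i < k + lo}

/-- the set of the indices of the `S`-events -/
def idxSet (S Z : Finset ℤ) (lo : ℤ) : Finset ℕ := S.image (idx S Z lo)

/-- **the index lemma**: `k` an `S`-event of `u`, `κ` a `Z`-event of `v`, with
`lo ≤ κ - k`, common events below, and no conflict of `v` in the band `[lo, κ - k]` -/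
theorem idx_ne {Su Zu Sv Zv : Finset ℤ} {lo k κ : ℤ} (hk : k ∈ Su) (hκ : κ ∈ Zv)
    (hlo : lo ≤ κ - k) (hS : ∀ j < k, (j ∈ Su ↔ j ∈ Sv)) (hZ : ∀ i < k + lo, (i ∈ Zu ↔ i ∈ Zv))
    (hno : ∀ k' ∈ Sv, ¬ (lo ≤ κ - k' ∧ κ - k' ≤ κ - k)) :
    idxSet Su Zu lo ≠ idxSet Sv Zv lo := by
  classical
  intro heq
  have h1 : idx Su Zu lo k = idx Sv Zv lo k := by
    unfold idx
    congr 2
    · ext j
      simp only [mem_filter]
      constructor
      · rintro ⟨h, h'⟩; exact ⟨(hS j h').1 h, h'⟩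
      · rintro ⟨h, h'⟩; exact ⟨(hS j h').2 h, h'⟩
    · ext j
      simp only [mem_filter]
      constructor
      · rintro ⟨h, h'⟩; exact ⟨(hZ j h').1 h, h'⟩
      · rintro ⟨h, h'⟩; exact ⟨(hZ j h').2 h, h'⟩
  have h2 : idx Sv Zv lo k ∈ idxSet Sv Zv lo := by
    rw [← heq, ← h1]
    exact mem_image_of_mem _ hk
  obtain ⟨k', hk', hidx⟩ := mem_image.1 h2
  have hmono : ∀ {a b : ℤ}, a ≤ b → #{j ∈ Sv | j < a} ≤ #{j ∈ Sv | j < b} := by
    intro a b hab
    exact card_le_card fun j hj => mem_filter.2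
      ⟨(mem_filter.1 hj).1, lt_of_lt_of_le (mem_filter.1 hj).2 hab⟩
  have hmono' : ∀ {a b : ℤ}, a ≤ b → #{j ∈ Zv | j < a} ≤ #{j ∈ Zv | j < b} := by
    intro a b hab
    exact card_le_card fun j hj => mem_filter.2
      ⟨(mem_filter.1 hj).1, lt_of_lt_of_le (mem_filter.1 hj).2 hab⟩
  rcases lt_or_ge k' k with hlt | hge
  · -- smaller key: smaller index
    have h3 : #{j ∈ Sv | j < k'} < #{j ∈ Sv | j < k} := by
      refine card_lt_card ⟨fun j hj => ?_, fun hsub => ?_⟩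
      · exact mem_filter.2 ⟨(mem_filter.1 hj).1, (mem_filter.1 hj).2.trans hlt⟩
      · exact lt_irrefl _ (mem_filter.1 (hsub (mem_filter.2 ⟨hk', hlt⟩))).2
    have h4 := hmono' (show k' + lo ≤ k + lo by omega)
    unfold idx at hidx
    omega
  · rcases le_or_gt (k' + lo) κ with hle | hgt
    · exact hno k' hk' ⟨by omega, by omega⟩
    · have h3 : #{j ∈ Zv | j < k + lo} < #{j ∈ Zv | j < k' + lo} := by
        refine card_lt_card ⟨fun j hj => ?_, fun hsub => ?_⟩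
        · exact mem_filter.2 ⟨(mem_filter.1 hj).1,
            lt_of_lt_of_le (mem_filter.1 hj).2 (by omega)⟩
        · have h5 := (mem_filter.1 (hsub (mem_filter.2 ⟨hκ, hgt⟩))).2
          omega
      have h4 := hmono hge
      unfold idx at hidx
      omega

theorem idx_lt {S Z : Finset ℤ} {lo k : ℤ} (hk : k ∈ S) : idx S Z lo k < #S + #Z := by
  classical
  have h1 : #{j ∈ S | j < k} < #S := by
    refine card_lt_card ⟨filter_subset _ _, fun hsub => ?_⟩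
    exact lt_irrefl _ (mem_filter.1 (hsub hk)).2
  have h2 : #{i ∈ Z | i < k + lo} ≤ #Z := card_le_card (filter_subset _ _)
  unfold idx
  omega

theorem idxSet_subset {S Z : Finset ℤ} {lo : ℤ} {N : ℕ} (h : #S + #Z ≤ N) :
    idxSet S Z lo ⊆ range N := by
  intro n hn
  obtain ⟨k, hk, rfl⟩ := mem_image.1 hn
  exact mem_range.2 (lt_of_lt_of_le (idx_lt hk) h)

/-- pigeonhole for masses -/
theorem exists_colour {Ω' : Type*} [Fintype Ω'] {ν : Ω' → ℝ} (ln' : Ω' → L) (A : L → Prop)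
    {γ : Type*} [Fintype γ] (F : L → γ) [Nonempty γ] :
    ∃ c : γ, ms ν (fun ω => A (ln' ω)) ≤
      Fintype.card γ * ms ν (fun ω => A (ln' ω) ∧ F (ln' ω) = c) := by
  classical
  obtain ⟨c, -, hc⟩ := Finset.exists_max_image (univ : Finset γ)
    (fun c => ms ν (fun ω => A (ln' ω) ∧ F (ln' ω) = c)) univ_nonempty
  refine ⟨c, ?_⟩
  have h1 : ms ν (fun ω => A (ln' ω)) = ∑ c : γ, ms ν (fun ω => A (ln' ω) ∧ F (ln' ω) = c) := by
    unfold ms
    rw [sum_comm]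
    refine sum_congr rfl fun ω _ => ?_
    by_cases hX : A (ln' ω)
    · rw [if_pos hX, sum_eq_single (F (ln' ω))]
      · rw [if_pos ⟨hX, rfl⟩]
      · intro c _ hc
        rw [if_neg]
        rintro ⟨-, h⟩
        exact hc h.symm
      · intro h
        exact absurd (mem_univ _) h
    · rw [if_neg hX]
      symm
      refine sum_eq_zero fun c _ => ?_
      rw [if_neg]
      rintro ⟨h, -⟩
      exact hX h
  rw [h1]
  calc ∑ c : γ, ms ν (fun ω => A (ln' ω) ∧ F (ln' ω) = c)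
      ≤ ∑ _c : γ, ms ν (fun ω => A (ln' ω) ∧ F (ln' ω) = c) := by
        refine sum_le_sum fun c' _ => hc c' (mem_univ _)
    _ = _ := by simp

section Sub

variable {α : Type*} {μ : Ω → ℝ} {ln : Ω → L} {S Z : ℤ → L → ζ}

/-- the events of the class `r` modulo 3 in `K` -/
noncomputable def evs (μ : Ω → ℝ) (ln : Ω → L) (S Z : ℤ → L → ζ) (q : ℝ) (E : ℕ) (o : ℤ)
    (K : Finset ℤ) (r : ℤ) (v : L) : Finset ℤ := by
  classical exact {k ∈ {k ∈ K | Evt μ ln S Z q E o k v} | k % 3 = r}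

theorem mem_evs {q : ℝ} {E : ℕ} {o : ℤ} {K : Finset ℤ} {r : ℤ} {v : L} {k : ℤ} :
    k ∈ evs μ ln S Z q E o K r v ↔ k ∈ K ∧ Evt μ ln S Z q E o k v ∧ k % 3 = r := by
  classical
  unfold evs
  simp only [mem_filter, and_assoc]

theorem card_evs (hμ : IsProb μ) (hS : Nst S) (hZ : Nst Z) {q : ℝ} (hq : 0 ≤ q) {Lq E : ℕ}
    (hLq : 1 ≤ Lq) (hqL : q ≤ (1 / 2 : ℝ) ^ Lq) (o : ℤ) (K : Finset ℤ) (r : ℤ) (v : L) :
    #(evs μ ln S Z q E o K r v) ≤ 3 * (E / Lq + 1) := by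
  classical
  unfold evs
  exact (card_le_card (filter_subset _ _)).trans (card_evt hμ ln hS hZ hq hLq hqL o K v)

/-- an event depends on the labels `(k + 3, k + o)` only -/
theorem evt_congr (hS : Nst S) {q : ℝ} {E : ℕ} {o k : ℤ} {u v : L}
    (h1 : S (k + 3) u = S (k + 3) v) (h2 : Z (k + o) u = Z (k + o) v) :
    Evt μ ln S Z q E o k u ↔ Evt μ ln S Z q E o k v := by
  have h3 : S k u = S k v := hS (by omega) h1
  unfold Evt
  rw [nm_congr h3 h2, nm_congr h1 h2]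

/-- one system: the line which is minor in slope and the line which is minor in height -/
theorem sub_core (hμ : IsProb μ) (hS : Nst S) (hZ : Nst Z) {q : ℝ} (hq2 : q ≤ 1 / 2) {E : ℕ}
    {omin omax k₀ k₁ κ₀ κ₁ olo ohi : ℤ} (homin : omin ≤ olo) (homax : ohi ≤ omax)
    {u v : L}
    (hv : ¬ Cnf1 μ ln S Z q E omin omax k₀ k₁ κ₀ κ₁ olo ohi v)
    {k κ : ℤ} (hk : k ∈ Icc k₀ k₁) (hκ : κ ∈ Icc κ₀ κ₁) (h1 : S k u = S k v)
    (h2 : Z κ u = Z κ v) (h3 : S (k + 3) u ≠ S (k + 3) v) (h4 : Z (κ + 3) u ≠ Z (κ + 3) v)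
    (hlo : olo ≤ κ - k) (hhi : κ - k ≤ ohi) (hrel : (1 / 2 : ℝ) ^ E ≤ nm μ ln S Z k κ u)
    (hnu : ¬ Bad μ ln Z S q E (-omax) k₁ κ u) (hnv : ¬ Bad μ ln S Z q E omin κ₁ k v) :
    idxSet (evs μ ln S Z q E olo (Icc k₀ k₁) (k % 3) u)
        (evs μ ln Z S q E (-ohi) (Icc κ₀ κ₁) (κ % 3) u) olo ≠
      idxSet (evs μ ln S Z q E olo (Icc k₀ k₁) (k % 3) v)
        (evs μ ln Z S q E (-ohi) (Icc κ₀ κ₁) (κ % 3) v) olo := by
  classical
  obtain ⟨hk₀, hk₁⟩ := mem_Icc.1 hk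
  obtain ⟨hκ₀, hκ₁⟩ := mem_Icc.1 hκ
  have hrelv : (1 / 2 : ℝ) ^ E ≤ nm μ ln S Z k κ v := by rw [← nm_congr h1 h2]; exact hrel
  have hpow : (0 : ℝ) < (1 / 2 : ℝ) ^ E := by positivity
  -- `k` is an `S`-event of `u`
  have hSu : Evt μ ln S Z q E olo k u := by
    have hZ1 : Z (k + olo) u = Z (k + olo) v := hZ (by omega) h2
    have hr : (1 / 2 : ℝ) ^ E ≤ nm μ ln S Z k (k + olo) v :=
      hrelv.trans (nm_anti hμ ln hS hZ le_rfl (by omega) v)
    have hnot : (1 - q) * nm μ ln S Z k (k + olo) v < nm μ ln S Z (k + 3) (k + olo) v := by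
      by_contra hcon
      push Not at hcon
      exact hnv ⟨k + olo, by omega, by omega, hr, hcon⟩
    have hadd := nm_add_le hμ ln hS (show k ≤ k + 3 by omega) h1 hZ1 h3
    refine ⟨by rw [nm_congr h1 hZ1]; exact hr, ?_⟩
    rw [nm_congr h1 hZ1] at hadd ⊢
    nlinarith
  -- `κ` is a `Z`-event of `v`
  have hZv : Evt μ ln Z S q E (-ohi) κ v := by
    have hS1 : S (κ + -ohi) v = S (κ + -ohi) u := hS (by omega) h1.symm
    have hr : (1 / 2 : ℝ) ^ E ≤ nm μ ln Z S κ (κ + -ohi) u := by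
      refine hrel.trans ?_
      rw [nm_swap]
      exact nm_anti hμ ln hZ hS le_rfl (by omega) u
    have hnot : (1 - q) * nm μ ln Z S κ (κ + -ohi) u < nm μ ln Z S (κ + 3) (κ + -ohi) u := by
      by_contra hcon
      push Not at hcon
      exact hnu ⟨κ + -ohi, by omega, by omega, hr, hcon⟩
    have hadd := nm_add_le hμ ln hZ (show κ ≤ κ + 3 by omega) h2.symm hS1 h4.symm
    refine ⟨by rw [nm_congr h2.symm hS1]; exact hr, ?_⟩
    rw [nm_congr h2.symm hS1] at hadd ⊢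
    nlinarith
  refine idx_ne (k := k) (κ := κ) (mem_evs.2 ⟨hk, hSu, rfl⟩) (mem_evs.2 ⟨hκ, hZv, rfl⟩) hlo
    (fun j hj => ?_) (fun i hi => ?_) ?_
  · -- common `S`-events
    rw [mem_evs, mem_evs]
    constructor
    · rintro ⟨ha, hb, hc⟩
      refine ⟨ha, ?_, hc⟩
      rwa [← evt_congr hS (hS (by omega) h1) (hZ (by omega) h2)]
    · rintro ⟨ha, hb, hc⟩
      refine ⟨ha, ?_, hc⟩
      rwa [evt_congr hS (hS (by omega) h1) (hZ (by omega) h2)]
  · -- common `Z`-events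
    rw [mem_evs, mem_evs]
    constructor
    · rintro ⟨ha, hb, hc⟩
      refine ⟨ha, ?_, hc⟩
      rwa [← evt_congr hZ (hZ (by omega) h2) (hS (by omega) h1)]
    · rintro ⟨ha, hb, hc⟩
      refine ⟨ha, ?_, hc⟩
      rwa [evt_congr hZ (hZ (by omega) h2) (hS (by omega) h1)]
  · -- no conflict of `v`
    rintro k' hk' ⟨hc1, hc2⟩
    obtain ⟨hk'K, hk'E, -⟩ := mem_evs.1 hk'
    refine hv ⟨k', hk'K, κ, hκ, ⟨k' + olo, by omega, by omega, hk'E.1, ?_⟩,
      ⟨κ + -ohi, by omega, by omega, hZv.1, ?_⟩, hc1, hc2.trans hhi⟩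
    · refine hk'E.2.trans (mul_le_mul_of_nonneg_right (by linarith) (nm_nonneg hμ _ _ _ _ _ _))
    · refine hZv.2.trans (mul_le_mul_of_nonneg_right (by linarith) (nm_nonneg hμ _ _ _ _ _ _))

/-- **NG, step (5)**: a large subset of the conflict-free lines without pairs separated in both
directions at a relevant node of the band -/
theorem exists_sub {α : Type*} [Fintype α] {Ω' : Type*} [Fintype Ω'] {μ : Ω → ℝ} {ν : Ω' → ℝ}
    (ln : Ω → L) (ln' : Ω' → L) {S Z : α → ℤ → L → ζ} (hS : ∀ a, Nst (S a))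
    (hZ : ∀ a, Nst (Z a)) (hμ : IsProb μ) {q : ℝ} (hq : 0 < q) {Lq E : ℕ}
    (hLq : 1 ≤ Lq) (hqL : q ≤ (1 / 2 : ℝ) ^ Lq)
    {omin omax k₀ k₁ κ₀ κ₁ olo ohi : ℤ} (homin : omin ≤ olo) (homax : ohi ≤ omax)
    (A : L → Prop)
    (hA : ∀ v, A v → ¬ Cnf μ ln S Z q E omin omax k₀ k₁ κ₀ κ₁ olo ohi v) :
    ∃ A₁ : L → Prop, (∀ v, A₁ v → A v) ∧
      ms ν (fun ω => A (ln' ω)) ≤
        2 ^ (9 * Fintype.card α * (6 * (E / Lq + 1))) * ms ν (fun ω => A₁ (ln' ω)) ∧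
      ∀ u v, A₁ u → A₁ v → ∀ a, ∀ k ∈ Icc k₀ k₁, ∀ κ ∈ Icc κ₀ κ₁, S a k u = S a k v →
        Z a κ u = Z a κ v → S a (k + 3) u ≠ S a (k + 3) v → Z a (κ + 3) u ≠ Z a (κ + 3) v →
        olo ≤ κ - k → κ - k ≤ ohi → (1 / 2 : ℝ) ^ E ≤ nm μ ln (S a) (Z a) k κ u → False := by
  classical
  set N : ℕ := 6 * (E / Lq + 1) with hN
  have hq2 : q ≤ 1 / 2 := hqL.trans (by
    calc (1 / 2 : ℝ) ^ Lq ≤ (1 / 2 : ℝ) ^ 1 := pow_le_pow_of_le_one (by norm_num) (by norm_num) hLq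
      _ = 1 / 2 := by norm_num)
  -- the colours
  have hsub : ∀ (a : α) (r r' : Fin 3) (v : L),
      idxSet (evs μ ln (S a) (Z a) q E olo (Icc k₀ k₁) (r : ℕ) v)
        (evs μ ln (Z a) (S a) q E (-ohi) (Icc κ₀ κ₁) (r' : ℕ) v) olo ∈ (range N).powerset := by
    intro a r r' v
    rw [mem_powerset]
    refine idxSet_subset ?_
    have h1 := card_evs (ln := ln) hμ (hS a) (hZ a) hq.le (E := E) hLq hqL olo (Icc k₀ k₁)
      (r : ℕ) v
    have h2 := card_evs (ln := ln) hμ (hZ a) (hS a) hq.le (E := E) hLq hqL (-ohi) (Icc κ₀ κ₁)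
      (r' : ℕ) v
    omega
  let F : L → (α × Fin 3 × Fin 3 → (range N).powerset) := fun v x => ⟨_, hsub x.1 x.2.1 x.2.2 v⟩
  have hcardF : Fintype.card (α × Fin 3 × Fin 3 → (range N).powerset) =
      2 ^ (9 * Fintype.card α * N) := by
    rw [Fintype.card_fun, Fintype.card_coe, card_powerset, card_range, ← pow_mul]
    congr 1
    simp only [Fintype.card_prod, Fintype.card_fin]
    ring
  have : Nonempty (α × Fin 3 × Fin 3 → (range N).powerset) :=
    ⟨fun _ => ⟨∅, empty_mem_powerset _⟩⟩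
  obtain ⟨c, hc⟩ := exists_colour (ν := ν) ln' A F
  refine ⟨fun v => A v ∧ F v = c, fun v h => h.1, ?_, ?_⟩
  · rw [hcardF] at hc
    push_cast at hc
    exact hc
  intro u v hu hv a k hk κ hκ h1 h2 h3 h4 hlo hhi hrel
  have hFuv : F u = F v := hu.2.trans hv.2.symm
  -- equality of the index sets
  have hIdx : idxSet (evs μ ln (S a) (Z a) q E olo (Icc k₀ k₁) (k % 3) u)
      (evs μ ln (Z a) (S a) q E (-ohi) (Icc κ₀ κ₁) (κ % 3) u) olo =
    idxSet (evs μ ln (S a) (Z a) q E olo (Icc k₀ k₁) (k % 3) v)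
      (evs μ ln (Z a) (S a) q E (-ohi) (Icc κ₀ κ₁) (κ % 3) v) olo := by
    have hr : (k % 3).toNat < 3 := by omega
    have hr' : (κ % 3).toNat < 3 := by omega
    have h5 := congrArg Subtype.val
      (congrFun hFuv (a, ⟨(k % 3).toNat, hr⟩, ⟨(κ % 3).toNat, hr'⟩))
    have e1 : (((k % 3).toNat : ℕ) : ℤ) = k % 3 := Int.toNat_of_nonneg (by omega)
    have e2 : (((κ % 3).toNat : ℕ) : ℤ) = κ % 3 := Int.toNat_of_nonneg (by omega)
    simp only [F, e1, e2] at h5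
    exact h5
  have hcu : ¬ Cnf1 μ ln (S a) (Z a) q E omin omax k₀ k₁ κ₀ κ₁ olo ohi u := fun h =>
    hA u hu.1 ⟨a, h⟩
  have hcv : ¬ Cnf1 μ ln (S a) (Z a) q E omin omax k₀ k₁ κ₀ κ₁ olo ohi v := fun h =>
    hA v hv.1 ⟨a, h⟩
  obtain ⟨hk₀, hk₁⟩ := mem_Icc.1 hk
  obtain ⟨hκ₀, hκ₁⟩ := mem_Icc.1 hκ
  have hpow : (0 : ℝ) < (1 / 2 : ℝ) ^ E := by positivity
  have hrelv : (1 / 2 : ℝ) ^ E ≤ nm μ ln (S a) (Z a) k κ v := by
    rw [← nm_congr h1 h2]; exact hrel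
  have hrelZu : (1 / 2 : ℝ) ^ E ≤ nm μ ln (Z a) (S a) κ k u := by rw [nm_swap]; exact hrel
  have hrelZv : (1 / 2 : ℝ) ^ E ≤ nm μ ln (Z a) (S a) κ k v := by rw [nm_swap]; exact hrelv
  -- bad lines
  have hSbad : ∀ w, (1 / 2 : ℝ) ^ E ≤ nm μ ln (S a) (Z a) k κ w →
      ¬ Bad μ ln (S a) (Z a) q E omin κ₁ k w →
      (1 - q) * nm μ ln (S a) (Z a) k κ w < nm μ ln (S a) (Z a) (k + 3) κ w := by
    intro w hw hb
    by_contra hcon
    push Not at hcon
    exact hb ⟨κ, by omega, hκ₁, hw, hcon⟩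
  have hZbad : ∀ w, (1 / 2 : ℝ) ^ E ≤ nm μ ln (Z a) (S a) κ k w →
      ¬ Bad μ ln (Z a) (S a) q E (-omax) k₁ κ w →
      (1 - q) * nm μ ln (Z a) (S a) κ k w < nm μ ln (Z a) (S a) (κ + 3) k w := by
    intro w hw hb
    by_contra hcon
    push Not at hcon
    exact hb ⟨k, by omega, hk₁, hw, hcon⟩
  have haddS := nm_add_le hμ ln (hS a) (show k ≤ k + 3 by omega) h1 h2 h3
  have haddZ := nm_add_le hμ ln (hZ a) (show κ ≤ κ + 3 by omega) h2 h1 h4
  have eS := nm_congr (μ := μ) (ln := ln) h1 h2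
  have eZ := nm_congr (μ := μ) (ln := ln) h2 h1
  by_cases hbu : Bad μ ln (S a) (Z a) q E omin κ₁ k u
  · -- `u` is bad in slope, hence not in height; so `v` is bad in height, not in slope
    have hnu : ¬ Bad μ ln (Z a) (S a) q E (-omax) k₁ κ u := fun h =>
      hcu ⟨k, hk, κ, hκ, hbu, h, hlo, hhi⟩
    have h5 := hZbad u hrelZu hnu
    have hbv : Bad μ ln (Z a) (S a) q E (-omax) k₁ κ v := by
      by_contra h
      have h6 := hZbad v hrelZv h
      rw [← eZ] at h6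
      nlinarith
    have hnv : ¬ Bad μ ln (S a) (Z a) q E omin κ₁ k v := fun h =>
      hcv ⟨k, hk, κ, hκ, h, hbv, hlo, hhi⟩
    exact sub_core hμ (hS a) (hZ a) hq2 homin homax hcv hk hκ h1 h2 h3 h4 hlo hhi hrel hnu hnv
      hIdx
  · -- `v` is bad in slope, hence not in height; so `u` is bad in height
    have h5 := hSbad u hrel hbu
    have hbv : Bad μ ln (S a) (Z a) q E omin κ₁ k v := by
      by_contra h
      have h6 := hSbad v hrelv h
      rw [← eS] at h6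
      nlinarith
    have hnv : ¬ Bad μ ln (Z a) (S a) q E (-omax) k₁ κ v := fun h =>
      hcv ⟨k, hk, κ, hκ, hbv, h, hlo, hhi⟩
    exact sub_core hμ (hS a) (hZ a) hq2 homin homax hcu hk hκ h1.symm h2.symm h3.symm h4.symm
      hlo hhi hrelv hnv hbu hIdx.symm

end Sub

end Vale.Agent.P065.H422
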