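import Vale.Agent.P065.H422.NG3

/-!
# P065, SGIANT part (1): the exceptional flags which are neither in the majority nor split off
are negligible (helper422)

Exact shape of helper700's note #7942.
-/

set_option autoImplicit false

namespace Vale.Agent.P065.H422

open Finset Real Vale.Agent.P065.Ent Vale.Agent.P065.H725

variable {Ω : Type*} [Fintype Ω]

/-- `Pr` as the mass of an event -/
theorem ms_eq_Pr {α : Type*} (μ : Ω → ℝ) (X : Ω → α) (x : α) :
    ms μ (fun ω => X ω = x) = Pr μ X x := by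
  classical
  unfold ms Pr
  rfl

/-- decay along a chain with gaps `P` -/
theorem chain_leP {f : ℤ → ℝ} (hf : ∀ ⦃i j : ℤ⦄, i ≤ j → f j ≤ f i)
    (hf1 : ∀ i, f i ≤ 1) {q : ℝ} (hq : 0 ≤ q) (P : ℕ) (s : Finset ℤ)
    (hs : ∀ k ∈ s, f (k + P) ≤ q * f k)
    (hgap : ∀ i ∈ s, ∀ j ∈ s, i < j → i + P ≤ j) :
    ∀ a, (∀ i ∈ s, i + P ≤ a) → f a ≤ q ^ #s := by
  classical
  induction s using Finset.induction_on_max with
  | empty => intro a _; simpa using hf1 a
  | insert b s hb ih =>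
    intro a ha
    have hbs : b ∉ s := fun h => lt_irrefl _ (hb b h)
    have h1 := ih (fun k hk => hs k (mem_insert_of_mem hk))
      (fun i hi j hj => hgap i (mem_insert_of_mem hi) j (mem_insert_of_mem hj)) b
      (fun i hi => hgap i (mem_insert_of_mem hi) b (mem_insert_self _ _) (hb i hi))
    rw [card_insert_of_notMem hbs, pow_succ]
    calc f a ≤ f (b + P) := hf (ha b (mem_insert_self _ _))
      _ ≤ q * f b := hs b (mem_insert_self _ _)
      _ ≤ q * q ^ #s := mul_le_mul_of_nonneg_left h1 hq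
      _ = q ^ #s * q := mul_comm _ _

/-- the number of the halvings at distance `P` along a chain -/
theorem card_halve {f : ℤ → ℝ} (hf : ∀ ⦃i j : ℤ⦄, i ≤ j → f j ≤ f i)
    (hf1 : ∀ i, f i ≤ 1) {P E : ℕ} (hP : 1 ≤ P) (s : Finset ℤ)
    (hs : ∀ k ∈ s, f (k + P) ≤ 1 / 2 * f k) (hE : ∀ k ∈ s, (1 / 2 : ℝ) ^ E ≤ f k) :
    #s ≤ P * (E + 1) := by
  classical
  have hP0 : (0 : ℤ) < P := by exact_mod_cast hP
  have h1 : #s = ∑ r ∈ range P, #{k ∈ s | (k % (P : ℤ)).toNat = r} := by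
    refine card_eq_sum_card_fiberwise fun k _ => ?_
    have h2 := Int.emod_lt_of_pos k hP0
    have h3 := Int.emod_nonneg k hP0.ne'
    simp only [coe_range, Set.mem_Iio]
    omega
  rw [h1]
  calc ∑ r ∈ range P, #{k ∈ s | (k % (P : ℤ)).toNat = r} ≤ ∑ _r ∈ range P, (E + 1) := by
        refine sum_le_sum fun r _ => ?_
        set u := {k ∈ s | (k % (P : ℤ)).toNat = r} with hu
        rcases u.eq_empty_or_nonempty with h0 | hne
        · rw [h0]; simp
        have husub : ∀ k ∈ u, k ∈ s := fun k hk => (mem_filter.1 hk).1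
        have hgap : ∀ i ∈ u, ∀ j ∈ u, i < j → i + P ≤ j := by
          intro i hi j hj hij
          have e1 := (mem_filter.1 hi).2
          have e2 := (mem_filter.1 hj).2
          have e3 := Int.emod_nonneg i hP0.ne'
          have e4 := Int.emod_nonneg j hP0.ne'
          have e5 : i % (P : ℤ) = j % (P : ℤ) := by omega
          have e6 : (P : ℤ) ∣ j - i := Int.ModEq.dvd e5
          have e7 := Int.le_of_dvd (by omega) e6
          omega
        set b := u.max' hne with hb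
        have hbs : b ∈ u := u.max'_mem hne
        have h2 : f b ≤ (1 / 2 : ℝ) ^ #(u.erase b) := by
          refine chain_leP hf hf1 (by norm_num) P (u.erase b)
            (fun k hk => hs k (husub k (mem_of_mem_erase hk)))
            (fun i hi j hj => hgap i (mem_of_mem_erase hi) j (mem_of_mem_erase hj)) b
            fun i hi => ?_
          exact hgap i (mem_of_mem_erase hi) b hbs
            (lt_of_le_of_ne (u.le_max' i (mem_of_mem_erase hi)) (ne_of_mem_erase hi))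
        rw [card_erase_of_mem hbs] at h2
        have h3 : #u - 1 ≤ E := by
          by_contra hcon
          push Not at hcon
          have := pow_lt_pow_right_of_lt_one₀ (a := (1 / 2 : ℝ)) (by norm_num) (by norm_num) hcon
          have := hE b (husub b hbs)
          linarith
        omega
    _ = P * (E + 1) := by simp

section Neg

variable {ξ ℓ ρt : Type*} {μ : Ω → ℝ}

/-- the flag `w` is not in the heavy tube of its cell `Lc k` -/
def Hv (μ : Ω → ℝ) (Lc : ℤ → Ω → ℓ) (P' : ℕ) (k : ℤ) (w : Ω) : Prop :=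
  Pr μ (Lc (k + P')) (Lc (k + P') w) ≤ 1 / 2 * Pr μ (Lc k) (Lc k w)

/-- at least half of the far flags of the fine box of `w` are in the heavy tube -/
def Maj (μ : Ω → ℝ) (Lc : ℤ → Ω → ℓ) (P' : ℕ) (rho : ℤ → Ω → ρt) (far : ℤ → Ω → Ω → Prop) (k : ℤ)
    (w : Ω) : Prop :=
  1 / 2 * ms μ (fun w' => rho k w' = rho k w ∧ far k w w') ≤
    ms μ (fun w' => rho k w' = rho k w ∧ far k w w' ∧ ¬ Hv μ Lc P' k w')

/-- the time label of `w` is not the typical one, or the atypical ones have relative mass at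
least `τ₁` in the cell `Lc k` of `w` -/
def Un (μ : Ω → ℝ) (Lc : ℤ → Ω → ℓ) (X x0 : Ω → ξ) (τ₁ : ℝ) (k : ℤ) (w : Ω) : Prop :=
  X w ≠ x0 w ∨ τ₁ * Pr μ (Lc k) (Lc k w) ≤ ms μ (fun w' => Lc k w' = Lc k w ∧ X w' ≠ x0 w')

/-- **SGIANT (1)**, one time level -/
theorem sgneg_t (hμ : IsProb μ) (Lc : ℤ → Ω → ℓ)
    (hL : ∀ ⦃i j : ℤ⦄, i ≤ j → Det (Lc j) (Lc i)) (rho : ℤ → Ω → ρt) (X x0 : Ω → ξ)
    (hX : ∀ k, Det (rho k) X) (hx0 : ∀ k, Det (rho k) x0) (G RN : ℤ → Ω → Prop)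
    (far : ℤ → Ω → Ω → Prop) {P' E : ℕ} (hP' : 1 ≤ P') {C τ₁ : ℝ} (hC : 0 ≤ C) (hτ₁ : 0 < τ₁)
    (h1 : ∀ k w, ms μ (fun w' => rho k w' = rho k w ∧ G k w') ≤
      C * Pr μ (rho k) (rho k w))
    (h2 : ∀ k w, G k w → 1 / 2 * Pr μ (rho k) (rho k w) ≤
      ms μ (fun w' => rho k w' = rho k w ∧ far k w w'))
    (h3 : ∀ k w, G k w → ¬ RN k w → ∀ w', rho k w' = rho k w → Lc k w' = Lc k w)
    (h4 : ∀ k w, G k w → (1 / 2 : ℝ) ^ E ≤ Pr μ (rho k) (rho k w)) (K : Finset ℤ) :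
    ∑ k ∈ K, ms μ (fun w => G k w ∧ ¬ RN k w ∧ ¬ Maj μ Lc P' rho far k w ∧
        Un μ Lc X x0 τ₁ k w) ≤
      4 * C * (P' * (E + 1)) * (1 + 1 / τ₁) * ms μ (fun w => X w ≠ x0 w) := by
  classical
  have h2E : (0 : ℝ) < (1 / 2) ^ E := by positivity
  -- one column
  have hcol : ∀ k, ms μ (fun w => G k w ∧ ¬ RN k w ∧ ¬ Maj μ Lc P' rho far k w ∧
      Un μ Lc X x0 τ₁ k w) ≤ 4 * C * ms μ (fun w => (Un μ Lc X x0 τ₁ k w ∧
        (1 / 2 : ℝ) ^ E ≤ Pr μ (Lc k) (Lc k w)) ∧ Hv μ Lc P' k w) := by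
    intro k
    refine ms_fiber μ (rho k) _ _ _ fun w₀ => ?_
    by_cases hex : ∃ w, rho k w = rho k w₀ ∧ (G k w ∧ ¬ RN k w ∧ ¬ Maj μ Lc P' rho far k w ∧
      Un μ Lc X x0 τ₁ k w)
    swap
    · have e1 : ms μ (fun w => (G k w ∧ ¬ RN k w ∧ ¬ Maj μ Lc P' rho far k w ∧
          Un μ Lc X x0 τ₁ k w) ∧ rho k w = rho k w₀) ≤ ms μ (fun _ => False) :=
        ms_mono hμ fun w _ h => hex ⟨w, h.2, h.1⟩
      have e2 : ms μ (fun _ => False) = 0 := by unfold ms; simp
      rw [e2] at e1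
      exact e1.trans (mul_nonneg (by positivity) (ms_nonneg hμ _))
    obtain ⟨w, hw, hG, hRN, hMaj, hU⟩ := hex
    have e1 : ms μ (fun w' => (G k w' ∧ ¬ RN k w' ∧ ¬ Maj μ Lc P' rho far k w' ∧
        Un μ Lc X x0 τ₁ k w') ∧ rho k w' = rho k w₀) ≤ C * Pr μ (rho k) (rho k w₀) := by
      refine le_trans (ms_mono hμ fun w' _ h => ?_) (h1 k w₀)
      exact ⟨h.2, h.1.1⟩
    -- the far flags outside the tube
    have e2 : 1 / 4 * Pr μ (rho k) (rho k w) ≤
        ms μ (fun w' => rho k w' = rho k w ∧ far k w w' ∧ Hv μ Lc P' k w') := by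
      unfold Maj at hMaj
      push Not at hMaj
      have e3 := ms_split μ (fun w' => rho k w' = rho k w ∧ far k w w')
        (fun w' => Hv μ Lc P' k w')
      have e4 : ms μ (fun w' => (rho k w' = rho k w ∧ far k w w') ∧ Hv μ Lc P' k w') =
          ms μ (fun w' => rho k w' = rho k w ∧ far k w w' ∧ Hv μ Lc P' k w') :=
        ms_congr hμ fun w' _ => and_assoc
      have e5 : ms μ (fun w' => (rho k w' = rho k w ∧ far k w w') ∧ ¬ Hv μ Lc P' k w') =
          ms μ (fun w' => rho k w' = rho k w ∧ far k w w' ∧ ¬ Hv μ Lc P' k w') :=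
        ms_congr hμ fun w' _ => and_assoc
      have e6 := h2 k w hG
      linarith
    have e3 : 1 / 4 * Pr μ (rho k) (rho k w₀) ≤
        ms μ (fun w' => ((Un μ Lc X x0 τ₁ k w' ∧
          (1 / 2 : ℝ) ^ E ≤ Pr μ (Lc k) (Lc k w')) ∧ Hv μ Lc P' k w') ∧ rho k w' = rho k w₀) := by
      rw [← hw]
      refine e2.trans (ms_mono hμ fun w' _ h => ?_)
      have hLw : Lc k w' = Lc k w := h3 k w hG hRN w' h.1
      refine ⟨⟨⟨?_, ?_⟩, h.2.2⟩, h.1⟩
      · have hXw := hX k _ _ h.1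
        have hx0w := hx0 k _ _ h.1
        unfold Un at hU ⊢
        rw [hXw, hx0w, hLw]
        exact hU
      · rw [hLw]
        refine (h4 k w hG).trans ?_
        rw [← ms_eq_Pr, ← ms_eq_Pr]
        exact ms_mono hμ fun w'' _ h'' => h3 k w hG hRN w'' h''
    calc _ ≤ C * Pr μ (rho k) (rho k w₀) := e1
      _ = 4 * C * (1 / 4 * Pr μ (rho k) (rho k w₀)) := by ring
      _ ≤ _ := mul_le_mul_of_nonneg_left e3 (by positivity)
  -- all columns
  have hmax : ms μ (fun w => ∃ k ∈ K, Un μ Lc X x0 τ₁ k w) ≤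
      (1 + 1 / τ₁) * ms μ (fun w => X w ≠ x0 w) := by
    have m1 := max_ineq hμ Lc (fun i j u v hij h => hL hij u v h) (fun w => X w ≠ x0 w)
      hτ₁.le (fun k w => τ₁ * Pr μ (Lc k) (Lc k w) ≤
        ms μ (fun w' => Lc k w' = Lc k w ∧ X w' ≠ x0 w'))
      (fun i u v huv h => by rw [← huv]; exact h) K (fun i _ u h => by
        rw [ms_eq_Pr]
        refine h.trans (ms_mono hμ fun w' _ h' => ⟨h'.2, h'.1⟩))
    have m2 : ms μ (fun w => ∃ k ∈ K, τ₁ * Pr μ (Lc k) (Lc k w) ≤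
        ms μ (fun w' => Lc k w' = Lc k w ∧ X w' ≠ x0 w')) ≤
        1 / τ₁ * ms μ (fun w => X w ≠ x0 w) := by
      rw [one_div, inv_mul_eq_div, le_div_iff₀ hτ₁, mul_comm]
      exact m1.trans (ms_mono hμ fun w _ h => h.1)
    have m3 : ms μ (fun w => ∃ k ∈ K, Un μ Lc X x0 τ₁ k w) ≤
        ms μ (fun w => X w ≠ x0 w ∨ ∃ k ∈ K, τ₁ * Pr μ (Lc k) (Lc k w) ≤
          ms μ (fun w' => Lc k w' = Lc k w ∧ X w' ≠ x0 w')) := by
      refine ms_mono hμ fun w _ h => ?_
      obtain ⟨k, hk, h | h⟩ := h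
      · exact Or.inl h
      · exact Or.inr ⟨k, hk, h⟩
    have m4 := ms_or_le hμ (fun w => X w ≠ x0 w) (fun w => ∃ k ∈ K,
      τ₁ * Pr μ (Lc k) (Lc k w) ≤ ms μ (fun w' => Lc k w' = Lc k w ∧ X w' ≠ x0 w'))
    linarith
  have hcount : ∑ k ∈ K, ms μ (fun w => (Un μ Lc X x0 τ₁ k w ∧
        (1 / 2 : ℝ) ^ E ≤ Pr μ (Lc k) (Lc k w)) ∧ Hv μ Lc P' k w) ≤
      (P' * (E + 1)) * ms μ (fun w => ∃ k ∈ K, Un μ Lc X x0 τ₁ k w) := by
    rw [← sum_card (K := K) μ (fun k w => (Un μ Lc X x0 τ₁ k w ∧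
        (1 / 2 : ℝ) ^ E ≤ Pr μ (Lc k) (Lc k w)) ∧ Hv μ Lc P' k w)]
    unfold ms
    rw [mul_sum]
    refine sum_le_sum fun w _ => ?_
    by_cases hw : ∃ k ∈ K, Un μ Lc X x0 τ₁ k w
    · rw [if_pos hw, mul_comm]
      refine mul_le_mul_of_nonneg_right ?_ (hμ.nonneg w)
      have := card_halve (f := fun k => Pr μ (Lc k) (Lc k w)) (E := E) (P := P')
        (fun i j hij => Pr_mono hμ (hL hij) w) (fun i => Pr_le_one hμ _ _) hP'
        {k ∈ K | (Un μ Lc X x0 τ₁ k w ∧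
          (1 / 2 : ℝ) ^ E ≤ Pr μ (Lc k) (Lc k w)) ∧ Hv μ Lc P' k w}
        (fun k hk => (mem_filter.1 hk).2.2) (fun k hk => (mem_filter.1 hk).2.1.2)
      exact_mod_cast this
    · rw [if_neg hw, mul_zero]
      have : #{k ∈ K | (Un μ Lc X x0 τ₁ k w ∧
          (1 / 2 : ℝ) ^ E ≤ Pr μ (Lc k) (Lc k w)) ∧ Hv μ Lc P' k w} = 0 := by
        rw [card_eq_zero, filter_eq_empty_iff]
        intro k hk h
        exact hw ⟨k, hk, h.1.1⟩
      rw [this]
      simp
  calc _ ≤ ∑ k ∈ K, 4 * C * ms μ (fun w => (Un μ Lc X x0 τ₁ k w ∧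
        (1 / 2 : ℝ) ^ E ≤ Pr μ (Lc k) (Lc k w)) ∧ Hv μ Lc P' k w) :=
        sum_le_sum fun k _ => hcol k
    _ = 4 * C * ∑ k ∈ K, ms μ (fun w => (Un μ Lc X x0 τ₁ k w ∧
        (1 / 2 : ℝ) ^ E ≤ Pr μ (Lc k) (Lc k w)) ∧ Hv μ Lc P' k w) := by rw [mul_sum]
    _ ≤ 4 * C * ((P' * (E + 1)) * ms μ (fun w => ∃ k ∈ K, Un μ Lc X x0 τ₁ k w)) :=
        mul_le_mul_of_nonneg_left hcount (by positivity)
    _ ≤ 4 * C * ((P' * (E + 1)) * ((1 + 1 / τ₁) * ms μ (fun w => X w ≠ x0 w))) := by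
        refine mul_le_mul_of_nonneg_left (mul_le_mul_of_nonneg_left hmax (by positivity))
          (by positivity)
    _ = _ := by ring

/-- the mass of the atypical values is at most the entropy -/
theorem ms_ne_le {δ : Type*} (hμ : IsProb μ) (D : Ω → δ) (X x0 : Ω → ξ)
    (hx0 : Det D x0)
    (hmax : ∀ w, 0 < μ w → Pr μ (fun w => (X w, D w)) (X w, D w) ≤
      Pr μ (fun w => (X w, D w)) (x0 w, D w)) :
    ms μ (fun w => X w ≠ x0 w) ≤ Hc μ X D := by
  classical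
  -- a pointwise form of the entropy
  have hHc : Hc μ X D = ∑ w, μ w * (log (Pr μ D (D w)) -
      log (Pr μ (fun w => (X w, D w)) (X w, D w))) := by
    unfold Hc H
    rw [← sum_sub_distrib]
    refine sum_congr rfl fun w _ => ?_
    ring
  -- the mass of the typical value in a cell
  have hms : ms μ (fun w => X w ≠ x0 w) = ∑ w, μ w *
      (1 - Pr μ (fun w => (X w, D w)) (x0 w, D w) / Pr μ D (D w)) := by
    have e1 : ms μ (fun w => X w ≠ x0 w) = 1 - ms μ (fun w => X w = x0 w) :=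
      ms_not hμ (fun w => X w = x0 w)
    have e2 : ms μ (fun w => X w = x0 w) = ∑ w, μ w *
        (Pr μ (fun w => (X w, D w)) (x0 w, D w) / Pr μ D (D w)) := by
      obtain hΩ | ⟨⟨w0⟩⟩ := isEmpty_or_nonempty Ω
      · unfold ms; simp
      -- a function with `x0 = g ∘ D`
      let g : δ → ξ := fun d => if hd : ∃ w, D w = d then x0 hd.choose else x0 w0
      have hg : ∀ w, x0 w = g (D w) := by
        intro w
        have hd : ∃ w', D w' = D w := ⟨w, rfl⟩
        have : g (D w) = x0 hd.choose := dif_pos hd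
        rw [this]
        exact (hx0 _ _ hd.choose_spec).symm
      have e3 := sum_fiber μ D (fun d => Pr μ (fun w => (X w, D w)) (g d, d) / Pr μ D d)
      simp only [hg]
      rw [e3, ms_fiber_sum μ D]
      refine sum_congr rfl fun d hd => ?_
      obtain ⟨w1, -, hw1⟩ := mem_image.1 hd
      have e4 : ms μ (fun w => X w = g (D w) ∧ D w = d) =
          Pr μ (fun w => (X w, D w)) (g d, d) := by
        rw [← ms_eq_Pr]
        refine ms_congr hμ fun w _ => ⟨?_, ?_⟩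
        · rintro ⟨h1, h2⟩
          rw [h2] at h1
          exact Prod.ext h1 h2
        · intro h
          have h1 : X w = g d := congrArg Prod.fst h
          have h2 : D w = d := congrArg Prod.snd h
          exact ⟨by rw [h2]; exact h1, h2⟩
      rw [e4]
      rcases eq_or_ne (Pr μ D d) 0 with h0 | h0
      · have h5 : Pr μ (fun w => (X w, D w)) (g d, d) ≤ Pr μ D d := by
          rw [← ms_eq_Pr, ← ms_eq_Pr]
          exact ms_mono hμ fun w _ h => congrArg Prod.snd h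
        have h6 := Pr_nonneg hμ (fun w => (X w, D w)) (g d, d)
        have h7 : Pr μ (fun w => (X w, D w)) (g d, d) = 0 := by linarith
        rw [h7, h0]; simp
      · field_simp
    rw [e1, e2]
    have e5 : ∑ w, μ w * (1 - Pr μ (fun w => (X w, D w)) (x0 w, D w) / Pr μ D (D w)) =
        ∑ w, μ w - ∑ w, μ w * (Pr μ (fun w => (X w, D w)) (x0 w, D w) / Pr μ D (D w)) := by
      rw [← sum_sub_distrib]
      refine sum_congr rfl fun w _ => ?_
      ring
    rw [e5, hμ.sum]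
  rw [hms, hHc]
  refine sum_le_sum fun w _ => ?_
  rcases (hμ.nonneg w).eq_or_lt with h0 | h0
  · rw [← h0]; simp
  refine mul_le_mul_of_nonneg_left ?_ h0.le
  have p1 := Pr_pos hμ D h0
  have p2 := Pr_pos hμ (fun w => (X w, D w)) h0
  have p3 := hmax w h0
  have p4 : 0 < Pr μ (fun w => (X w, D w)) (x0 w, D w) := p2.trans_le p3
  have e1 : log (Pr μ (fun w => (X w, D w)) (X w, D w)) ≤
      log (Pr μ (fun w => (X w, D w)) (x0 w, D w)) := Real.log_le_log p2 p3
  have e2 := Real.log_le_sub_one_of_pos (div_pos p4 p1)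
  rw [Real.log_div p4.ne' p1.ne'] at e2
  show 1 - _ ≤ Real.log _ - Real.log _
  linarith

end Neg

end Vale.Agent.P065.H422
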