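import Vale.Agent.P065.H154.FrameBook

/-!
# P065: small boxes in big boxes (helper422)

(iii) of 279 #7973: the number of levels at which the box of the small guard has less than the
fraction `dl` of the box of the large guard.
-/

set_option autoImplicit false

open Finset Real

noncomputable section

namespace Vale.Agent.P065.H422

open Vale.Agent.P065.UB Vale.Agent.P065.Ent

section abs

variable {Ω : Type*} [Fintype Ω] {β γ ζ : Type*} {q : Ω → ℝ}

/-- telescoping with step `s` -/
lemma sum_shift_sub (f : ℕ → ℝ) (T s : ℕ) :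
    ∑ v ∈ range T, (f (v + s) - f v) = ∑ j ∈ range s, (f (T + j) - f j) := by
  induction T with
  | zero => simp
  | succ n ih =>
    rw [sum_range_succ, ih]
    have h : ∑ j ∈ range s, (f (n + 1 + j) - f j) - ∑ j ∈ range s, (f (n + j) - f j) =
        f (n + s) - f n := by
      rw [← sum_sub_distrib]
      have e := sum_range_sub (fun j => f (n + j)) s
      simp only [add_zero] at e
      rw [← e]
      refine sum_congr rfl fun j _ => ?_
      rw [show n + 1 + j = n + (j + 1) by ring]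
      ring
    linarith

/-- **small boxes in big boxes**, sum of the surprises: `B (v + s)` refines `A v` refines `B v` -/
theorem sum_small_big (hq : IsProb q) (A : ℕ → Ω → β) (B : ℕ → Ω → γ) (s : ℕ)
    (hB : ∀ v, Det (B (v + 1)) (B v)) (hBA : ∀ v, Det (B (v + s)) (A v))
    (Z : Ω → ζ) (hZ : ∀ v, Det Z (B v)) (T : ℕ) :
    ∑ ω, q ω * ∑ v ∈ range T, (-log (Pr q (A v) (A v ω)) - -log (Pr q (B v) (B v ω))) ≤
      s * Hc q Z (B 0) := by
  have hB' : ∀ i j, i ≤ j → Det (B j) (B i) := by
    intro i j h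
    induction j, h using Nat.le_induction with
    | base => exact Det.refl _
    | succ m _ ih => exact (hB m).trans ih
  have e0 : Hc q Z (B 0) = H q Z - H q (B 0) := Hc_eq (Det.refl _) (hZ 0) (det_fst _ _)
  have e1 : ∑ ω, q ω * ∑ v ∈ range T, (-log (Pr q (A v) (A v ω)) - -log (Pr q (B v) (B v ω))) =
      ∑ v ∈ range T, (H q (A v) - H q (B v)) := by
    simp only [mul_sum]
    rw [sum_comm]
    refine sum_congr rfl fun v _ => ?_
    simp only [mul_sub, sum_sub_distrib]
    rfl
  rw [e1]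
  have e2 : ∑ v ∈ range T, (H q (A v) - H q (B v)) ≤
      ∑ v ∈ range T, (H q (B (v + s)) - H q (B v)) :=
    sum_le_sum fun v _ => sub_le_sub_right (H_mono hq (hBA v)) _
  refine e2.trans ?_
  rw [sum_shift_sub (fun v => H q (B v)) T s]
  have e3 : ∀ j ∈ range s, H q (B (T + j)) - H q (B j) ≤ Hc q Z (B 0) := by
    intro j _
    rw [e0]
    have h1 := H_mono hq (hZ (T + j))
    have h2 := H_mono hq (hB' 0 j (Nat.zero_le _))
    linarith
  refine (sum_le_sum e3).trans ?_
  rw [sum_const, card_range, nsmul_eq_mul]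

open Classical in
/-- **small boxes in big boxes** (279 #7973 (iii)), abstract form -/
theorem small_big (hq : IsProb q) (A : ℕ → Ω → β) (B : ℕ → Ω → γ) (s : ℕ)
    (hB : ∀ v, Det (B (v + 1)) (B v)) (hAB : ∀ v, Det (A v) (B v))
    (hBA : ∀ v, Det (B (v + s)) (A v)) (Z : Ω → ζ) (hZ : ∀ v, Det Z (B v)) (T : ℕ)
    {dl : ℝ} (h0 : 0 < dl) :
    log (1 / dl) * ∑ ω, q ω * (#{v ∈ range T | Pr q (A v) (A v ω) < dl * Pr q (B v) (B v ω)} : ℝ) ≤
      s * Hc q Z (B 0) := by
  refine le_trans ?_ (sum_small_big hq A B s hB hBA Z hZ T)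
  rw [mul_sum]
  refine sum_le_sum fun ω _ => ?_
  rcases (hq.nonneg ω).eq_or_lt with hω | hω
  · rw [← hω]; simp
  rw [← mul_assoc, mul_comm (log (1 / dl)) (q ω), mul_assoc]
  refine mul_le_mul_of_nonneg_left ?_ hω.le
  rw [card_filter]
  push_cast
  rw [mul_sum]
  refine sum_le_sum fun v _ => ?_
  have hA := Pr_pos hq (A v) hω
  have hBp := Pr_pos hq (B v) hω
  split_ifs with h
  · rw [mul_one, one_div, log_inv]
    have h1 : log (Pr q (A v) (A v ω)) ≤ log (dl * Pr q (B v) (B v ω)) := log_le_log hA h.le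
    rw [log_mul h0.ne' hBp.ne'] at h1
    linarith
  · rw [mul_zero]
    have h1 : log (Pr q (A v) (A v ω)) ≤ log (Pr q (B v) (B v ω)) :=
      log_le_log hA (Pr_mono hq (hAB v) ω)
    linarith

end abs

section frame

open Vale.Agent.P065.H154 Vale.Agent.P065.H268 Vale.Agent.P065.H725

variable {Ω : Type*} [Fintype Ω] {F : Fr Ω} {ln : Ω → Pt} {p : Prm} {Lab : Type*} {lam : Ω → Lab}

omit [Fintype Ω] in
/-- a box of the large guard `γ + s`, `s` levels later, determines the box of the guard `γ` -/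
theorem Rt_shift (u : ℝ) (γ s t : ℕ) :
    Det (Rt F ln p u (γ + s) (t + s)) (Rt F ln p u γ t) := by
  rintro ⟨c, ω⟩ ⟨c', ω'⟩ h
  unfold Rt at h ⊢
  simp only [Prod.mk.injEq] at h ⊢
  obtain ⟨rfl, h2, h3, h4⟩ := h
  refine ⟨rfl, h2, F.D_det_le u (Nat.le_add_right t s) _ _ h3, ?_⟩
  have key : ∀ w : Ω, Nf F ln p (γ + s) (t + s) c w = Nf F ln p γ t c w := by
    intro w
    unfold Nf
    rw [show min (t + s) (F.T' w + (γ + s)) = min t (F.T' w + γ) + s by omega]
    exact Prm.N_add _ _ _ _ _ _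
  rw [key, key] at h4
  exact h4

open Classical in
/-- **small boxes in big boxes** (279 #7973 (iii)): for any law on columns and flags the average
number of levels at which the box of the guard `γ` has less than the fraction `dl` of the box of
the guard `a` is at most `(a - γ) / log (1 / dl)` times the entropy of the fine boxes -/
theorem small_bigF (u : ℝ) {γ a : ℕ} (hγa : γ ≤ a) {q : p.Col × Ω → ℝ} (hq : IsProb q) (T : ℕ)
    {dl : ℝ} (h0 : 0 < dl) :
    log (1 / dl) * ∑ z, q z * (#{v ∈ range T | Pr q (Rt F ln p u γ v) (Rt F ln p u γ v z) <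
        dl * Pr q (Rt F ln p u a v) (Rt F ln p u a v z)} : ℝ) ≤
      (a - γ : ℕ) * Hc q (rb F ln p lam) (fun z : p.Col × Ω => z.1) := by
  obtain ⟨s, rfl⟩ : ∃ s, a = γ + s := ⟨a - γ, by omega⟩
  have e : γ + s - γ = s := by omega
  rw [e]
  refine (small_big hq (Rt F ln p u γ) (Rt F ln p u (γ + s)) s (Rt_det u (γ + s))
    (fun v => Rt_guard u hγa v) (fun v => Rt_shift u γ s v) (rb F ln p lam)
    (fun v => rb_Rt u (γ + s) v) T h0).trans ?_
  refine mul_le_mul_of_nonneg_left ?_ (Nat.cast_nonneg _)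
  exact Hc_anti hq _ (Rt_col u (γ + s) 0)

end frame

end Vale.Agent.P065.H422
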